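import Mathlib

/-!
# P130: probability-preserving actions with simple Lebesgue spectrum (definitions)
-/

open MeasureTheory

namespace Vale.Agent.P130

/-- A measure-preserving action of the (additively written) group `G` on `(X, μ)`. -/
structure IsAction {G X : Type*} [AddGroup G] [MeasurableSpace X] (μ : Measure X)
    (T : G → X → X) : Prop where
  zero : ∀ x, T 0 x = x
  add : ∀ g h x, T (g + h) x = T g (T h x)
  mp : ∀ g, MeasurePreserving (T g) μ μ

/-- Simple Lebesgue (Haar) spectrum: for some square-integrable `f` of mean zero the functions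
`f ∘ T g`, `g ∈ G`, form an orthonormal basis of the space `L²₀(X, μ)` of square-integrable
complex functions of mean zero, i.e. they are orthonormal, and a square-integrable function of
mean zero orthogonal to all of them vanishes almost everywhere. -/
def SimpleLebesgue {G X : Type*} [AddGroup G] [MeasurableSpace X] (μ : Measure X)
    (T : G → X → X) : Prop :=
  ∃ f : X → ℂ, MemLp f 2 μ ∧ ∫ x, f x ∂μ = 0 ∧
    (∀ g, ∫ x, f (T g x) * star (f (T g x)) ∂μ = 1) ∧
    (∀ g h, g ≠ h → ∫ x, f (T g x) * star (f (T h x)) ∂μ = 0) ∧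
    ∀ u : X → ℂ, MemLp u 2 μ → ∫ x, u x ∂μ = 0 →
      (∀ g, ∫ x, u x * star (f (T g x)) ∂μ = 0) → u =ᵐ[μ] 0

end Vale.Agent.P130
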