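import Vale.Agent.P130.Defs

/-!
# P130: the multiplicative group of a countable field of characteristic two acting on the dual
of the additive group
-/

open MeasureTheory Set Submodule TopologicalSpace
open scoped ENNReal

namespace Vale.Agent.P130

namespace Dual

/-- the character of `ZMod 2` -/
noncomputable def sgn (z : ZMod 2) : ℂ := if z = 0 then 1 else -1

theorem sgn_zero : sgn 0 = 1 := if_pos rfl

theorem sgn_one : sgn 1 = -1 := if_neg (by decide)

theorem z2 (z : ZMod 2) : z = 0 ∨ z = 1 := by
  revert z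
  decide

theorem sgn_add (a b : ZMod 2) : sgn (a + b) = sgn a * sgn b := by
  have h : (1 : ZMod 2) + 1 = 0 := by decide
  rcases z2 a with rfl | rfl <;> rcases z2 b with rfl | rfl <;>
    simp [sgn_zero, sgn_one, h]

theorem star_sgn (a : ZMod 2) : star (sgn a) = sgn a := by
  rcases z2 a with rfl | rfl <;> simp [sgn_zero, sgn_one]

theorem norm_sgn (a : ZMod 2) : ‖sgn a‖ = 1 := by
  rcases z2 a with rfl | rfl <;> simp [sgn_zero, sgn_one]

variable {ι : Type} {K : Type} [Field K] [Algebra (ZMod 2) K] (b : Module.Basis ι (ZMod 2) K)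

/-- the linear functional with values `x` on the basis -/
noncomputable def φ (x : ι → ZMod 2) : K →ₗ[ZMod 2] ZMod 2 := b.constr (ZMod 2) x

theorem φ_basis (x : ι → ZMod 2) (i : ι) : φ b x (b i) = x i := b.constr_basis (ZMod 2) x i

theorem φ_add (x y : ι → ZMod 2) (v : K) : φ b (x + y) v = φ b x v + φ b y v := by
  unfold φ
  rw [map_add]
  rfl

theorem φ_ext {x y : ι → ZMod 2} (h : ∀ i, φ b x (b i) = φ b y (b i)) : x = y := by
  funext i
  rw [← φ_basis b x i, ← φ_basis b y i, h]

theorem continuous_φ (v : K) : Continuous fun x : ι → ZMod 2 => φ b x v := by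
  have h : (fun x : ι → ZMod 2 => φ b x v) =
      fun x => (b.repr v).sum fun i c => c • x i := by
    funext x
    rw [φ, Module.Basis.constr_apply]
  rw [h]
  unfold Finsupp.sum
  refine continuous_finsetSum _ fun i _ => ?_
  exact (continuous_of_discreteTopology (f := fun z : ZMod 2 => (b.repr v) i • z)).comp
    (continuous_apply i)

/-- the transpose of the multiplication by `a` -/
noncomputable def act (a : K) (x : ι → ZMod 2) : ι → ZMod 2 := fun i => φ b x (a * b i)

theorem φ_act (a : K) (x : ι → ZMod 2) (v : K) : φ b (act b a x) v = φ b x (a * v) := by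
  have h : φ b (act b a x) = (φ b x).comp (LinearMap.mulLeft (ZMod 2) a) := by
    refine b.ext fun i => ?_
    rw [φ_basis]
    rfl
  rw [h]
  rfl

theorem act_one (x : ι → ZMod 2) : act b 1 x = x := by
  refine φ_ext b fun i => ?_
  rw [φ_act, one_mul]

theorem act_mul (a c : K) (x : ι → ZMod 2) : act b (a * c) x = act b a (act b c x) := by
  refine φ_ext b fun i => ?_
  rw [φ_act, φ_act, φ_act]
  congr 1
  ring

theorem act_add (a : K) (x y : ι → ZMod 2) : act b a (x + y) = act b a x + act b a y := by
  funext i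
  exact φ_add b x y _

theorem continuous_act (a : K) : Continuous (act b a) :=
  continuous_pi fun i => continuous_φ b (a * b i)

/-- the character of `v` -/
noncomputable def ch (v : K) : C(ι → ZMod 2, ℂ) :=
  ⟨fun x => sgn (φ b x v), (continuous_of_discreteTopology (f := sgn)).comp (continuous_φ b v)⟩

theorem ch_apply (v : K) (x : ι → ZMod 2) : ch b v x = sgn (φ b x v) := rfl

theorem ch_zero : ch b 0 = 1 := by
  ext x
  rw [ch_apply, map_zero, sgn_zero]
  rfl

theorem ch_add (v w : K) : ch b (v + w) = ch b v * ch b w := by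
  ext x
  rw [ch_apply, map_add, sgn_add]
  rfl

theorem ch_act (a v : K) (x : ι → ZMod 2) : ch b v (act b a x) = ch b (a * v) x := by
  rw [ch_apply, ch_apply, φ_act]

theorem ch_add' (v : K) (x y : ι → ZMod 2) : ch b v (x + y) = ch b v x * ch b v y := by
  rw [ch_apply, φ_add, sgn_add]
  rfl

theorem star_ch (v : K) (x : ι → ZMod 2) : star (ch b v x) = ch b v x := star_sgn _

theorem exists_ne {v : K} (hv : v ≠ 0) : ∃ x, φ b x v = 1 := by
  obtain ⟨i, hi⟩ : ∃ i, b.repr v i ≠ 0 := by
    by_contra h
    push Not at h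
    apply hv
    apply b.repr.injective
    rw [map_zero]
    exact Finsupp.ext h
  classical
  refine ⟨Pi.single i 1, ?_⟩
  have h1 : φ b (Pi.single i 1) v = b.repr v i := by
    rw [φ, Module.Basis.constr_apply, Finsupp.sum, Finset.sum_eq_single i]
    · simp
    · intro j _ hj
      rw [Pi.single_eq_of_ne hj, smul_zero]
    · intro h
      rw [Finsupp.notMem_support_iff.1 h, zero_smul]
  rw [h1]
  exact (z2 _).resolve_left hi

variable [Countable ι]

instance : BorelSpace (ι → ZMod 2) := Pi.borelSpace

/-- Haar probability measure -/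
noncomputable def μ (ι : Type) [Countable ι] : Measure (ι → ZMod 2) := Measure.addHaarMeasure ⊤

instance : (μ ι).IsAddHaarMeasure := by unfold μ; infer_instance

instance : IsProbabilityMeasure (μ ι) := ⟨by
  have h := Measure.addHaarMeasure_self (K₀ := (⊤ : PositiveCompacts (ι → ZMod 2)))
  exact h⟩

theorem integral_ch {v : K} (hv : v ≠ 0) : ∫ x, ch b v x ∂(μ ι) = 0 := by
  obtain ⟨y, hy⟩ := exists_ne b hv
  refine integral_eq_zero_of_add_left_eq_neg (g := y) fun x => ?_
  rw [ch_add', ch_apply, hy, sgn_one, neg_one_mul]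

theorem measurePreserving_act {a : K} (ha : a ≠ 0) :
    MeasurePreserving (act b a) (μ ι) (μ ι) := by
  let f : (ι → ZMod 2) →+ (ι → ZMod 2) :=
    { toFun := act b a
      map_zero' := by
        have := act_add b a 0 0
        rw [add_zero] at this
        exact left_eq_add.1 this
      map_add' := act_add b a }
  refine AddMonoidHom.measurePreserving (f := f) (continuous_act b a) (fun x => ?_) rfl
  refine ⟨act b a⁻¹ x, ?_⟩
  change act b a (act b a⁻¹ x) = x
  rw [← act_mul, mul_inv_cancel₀ ha, act_one]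

/-! ### completeness -/

/-- the algebra of trigonometric polynomials -/
noncomputable def alg : StarSubalgebra ℂ C(ι → ZMod 2, ℂ) where
  toSubalgebra := Algebra.adjoin ℂ (range (ch b))
  star_mem' := by
    change Algebra.adjoin ℂ (range (ch b)) ≤ star (Algebra.adjoin ℂ (range (ch b)))
    refine Algebra.adjoin_le ?_
    rintro - ⟨v, rfl⟩
    refine Algebra.subset_adjoin ⟨v, ?_⟩
    ext x
    exact (star_ch b v x).symm

omit [Countable ι] in
theorem alg_coe : Subalgebra.toSubmodule (alg b).toSubalgebra = span ℂ (range (ch b)) := by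
  apply Algebra.adjoin_eq_span_of_subset
  refine Subset.trans ?_ Submodule.subset_span
  intro x hx
  refine Submonoid.closure_induction (fun _ => id) ⟨0, ?_⟩ ?_ hx
  · exact ch_zero b
  · rintro - - - - ⟨m, rfl⟩ ⟨n, rfl⟩
    exact ⟨m + n, ch_add b m n⟩

omit [Countable ι] in
theorem alg_sep : (alg b).SeparatesPoints := by
  intro x y hxy
  obtain ⟨i, hi⟩ : ∃ i, x i ≠ y i := by
    by_contra h
    push Not at h
    exact hxy (funext h)
  refine ⟨_, ⟨ch b (b i), Algebra.subset_adjoin ⟨b i, rfl⟩, rfl⟩, ?_⟩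
  change ch b (b i) x ≠ ch b (b i) y
  rw [ch_apply, ch_apply, φ_basis, φ_basis]
  rcases z2 (x i) with h1 | h1 <;> rcases z2 (y i) with h2 | h2
  · exact absurd (h1.trans h2.symm) hi
  · rw [h1, h2, sgn_zero, sgn_one]
    norm_num
  · rw [h1, h2, sgn_zero, sgn_one]
    norm_num
  · exact absurd (h1.trans h2.symm) hi

theorem span_ch : (span ℂ (range (ch b))).topologicalClosure = ⊤ := by
  rw [← alg_coe]
  exact congr_arg (Subalgebra.toSubmodule <| StarSubalgebra.toSubalgebra ·)
    (ContinuousMap.starSubalgebra_topologicalClosure_eq_top_of_separatesPoints (alg b) (alg_sep b))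

theorem complete (u : (ι → ZMod 2) → ℂ) (hu : MemLp u 2 (μ ι))
    (h : ∀ v : K, ∫ x, u x * star (ch b v x) ∂(μ ι) = 0) : u =ᵐ[μ ι] 0 := by
  have h1 : (span ℂ (range fun v : K => ContinuousMap.toLp (E := ℂ) 2 (μ ι) ℂ
      (ch b v))).topologicalClosure = ⊤ := by
    convert!
      (ContinuousMap.toLp_denseRange ℂ (μ ι) ℂ
        (by norm_num : (2 : ℝ≥0∞) ≠ ⊤)).topologicalClosure_map_submodule (span_ch b)
    rw [map_span, range_comp']
    simp only [ContinuousLinearMap.coe_coe]
  have h2 : (span ℂ (range fun v : K => ContinuousMap.toLp (E := ℂ) 2 (μ ι) ℂ (ch b v)))ᗮ = ⊥ :=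
    (Submodule.topologicalClosure_eq_top_iff).1 h1
  have h3 : hu.toLp u ∈ (span ℂ (range fun v : K =>
      ContinuousMap.toLp (E := ℂ) 2 (μ ι) ℂ (ch b v)))ᗮ := by
    rw [Submodule.mem_orthogonal]
    intro w hw
    induction hw using Submodule.span_induction with
    | mem w hw =>
      obtain ⟨v, rfl⟩ := hw
      rw [L2.inner_def]
      have h4 : ∫ x, inner ℂ ((ContinuousMap.toLp (E := ℂ) 2 (μ ι) ℂ (ch b v)) x)
          ((hu.toLp u) x) ∂(μ ι) = ∫ x, u x * star (ch b v x) ∂(μ ι) := by
        refine integral_congr_ae ?_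
        filter_upwards [ContinuousMap.coeFn_toLp (p := 2) (𝕜 := ℂ) (μ ι) (ch b v),
          hu.coeFn_toLp] with x hx1 hx2
        rw [hx1, hx2]
        rfl
      rw [h4, h v]
    | zero => exact inner_zero_left _
    | add x y _ _ hx hy => rw [inner_add_left, hx, hy, add_zero]
    | smul c x _ hx => rw [inner_smul_left, hx, mul_zero]
  rw [h2, Submodule.mem_bot] at h3
  have h5 := hu.coeFn_toLp
  rw [h3] at h5
  exact h5.symm.trans (Lp.coeFn_zero _ _ _)

end Dual

end Vale.Agent.P130
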