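import Mathlib

/-!
# P130: the multiplicative group of `𝔽₂(t)` is free abelian of countable rank
-/

open Polynomial

namespace Vale.Agent.P130

namespace Units2

/-- the rational functions over the field with two elements -/
abbrev F : Type := FractionRing (ZMod 2)[X]

/-- the irreducible polynomials over the field with two elements -/
abbrev Irr : Type := {p : (ZMod 2)[X] // Irreducible p}

instance countable_poly : Countable (ZMod 2)[X] := by
  have h : Function.Surjective fun g : ℕ →₀ ZMod 2 => g.sum fun n a => (monomial n a :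
      (ZMod 2)[X]) := by
    intro p
    exact ⟨⟨p.support, p.coeff, fun n => Polynomial.mem_support_iff⟩, p.sum_monomial_eq⟩
  exact h.countable

instance countable_F : Countable F := by
  have h : Function.Surjective fun p : (ZMod 2)[X] × (ZMod 2)[X] =>
      algebraMap (ZMod 2)[X] F p.1 / algebraMap (ZMod 2)[X] F p.2 := by
    intro z
    obtain ⟨x, y, _, h⟩ := IsFractionRing.div_surjective (ZMod 2)[X] z
    exact ⟨(x, y), h⟩
  exact h.countable

theorem unit_eq_one {p : (ZMod 2)[X]} (h : IsUnit p) : p = 1 := by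
  obtain ⟨r, hr, rfl⟩ := Polynomial.isUnit_iff.1 h
  have h1 : ∀ r : ZMod 2, r ≠ 0 → r = 1 := by decide
  rw [h1 r hr.ne_zero, map_one]

theorem eq_of_associated {p q : (ZMod 2)[X]} (h : Associated p q) : p = q := by
  obtain ⟨u, hu⟩ := h
  rw [unit_eq_one u.isUnit, mul_one] at hu
  exact hu

theorem one_add_one : (1 : (ZMod 2)[X]) + 1 = 0 := by
  have h : (1 : ZMod 2) + 1 = 0 := by decide
  rw [← map_one C, ← map_add, h, map_zero]

theorem exists_new (S : Finset (ZMod 2)[X]) (hS : ∀ p ∈ S, Irreducible p) :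
    ∃ p, Irreducible p ∧ p ∉ S := by
  obtain ⟨N, hN⟩ : ∃ N : (ZMod 2)[X], N = (∏ p ∈ S, p) * X := ⟨_, rfl⟩
  have hX : (X : (ZMod 2)[X]) ∣ N := ⟨∏ p ∈ S, p, by rw [hN, mul_comm]⟩
  have hN0 : N ≠ 0 := by
    rw [hN]
    exact mul_ne_zero (Finset.prod_ne_zero_iff.2 fun p hp => (hS p hp).ne_zero) X_ne_zero
  have h1 : ¬IsUnit (N + 1) := by
    intro h
    have h2 := unit_eq_one h
    exact hN0 (add_eq_right.1 h2)
  have h2 : N + 1 ≠ 0 := by
    intro h
    have h3 : N = 1 := add_right_cancel (h.trans one_add_one.symm)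
    rw [h3] at hX
    exact Polynomial.irreducible_X.not_isUnit (isUnit_of_dvd_one hX)
  obtain ⟨p, hp, hpN⟩ := WfDvdMonoid.exists_irreducible_factor h1 h2
  refine ⟨p, hp, fun hpS => ?_⟩
  have h3 : p ∣ N := by
    rw [hN]
    exact (Finset.dvd_prod_of_mem (fun p => p) hpS).mul_right X
  have h4 : p ∣ 1 := (dvd_add_right h3).1 hpN
  exact hp.not_isUnit (isUnit_of_dvd_one h4)

instance infinite_Irr : Infinite Irr := by
  by_contra hfin
  rw [not_infinite_iff_finite] at hfin
  have h : Set.Finite {p : (ZMod 2)[X] | Irreducible p} := hfin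
  obtain ⟨p, hp, hpS⟩ := exists_new h.toFinset fun p hp => by simpa using hp
  exact hpS (by simpa using hp)

/-- the image of an irreducible polynomial in the multiplicative group -/
noncomputable def u (p : Irr) : Fˣ :=
  Units.mk0 (algebraMap (ZMod 2)[X] F p.1) (by
    rw [Ne, IsFractionRing.to_map_eq_zero_iff]
    exact p.2.ne_zero)

theorem u_val (p : Irr) : (u p : F) = algebraMap (ZMod 2)[X] F p.1 := rfl

/-- the product of powers of irreducible polynomials -/
noncomputable def Φ (g : Irr →₀ ℤ) : Fˣ := g.prod fun p n => u p ^ n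

theorem Φ_zero : Φ 0 = 1 := Finsupp.prod_zero_index

theorem Φ_add (g h : Irr →₀ ℤ) : Φ (g + h) = Φ g * Φ h :=
  Finsupp.prod_add_index' (fun _ => zpow_zero _) fun _ _ _ => zpow_add _ _ _

theorem Φ_neg (g : Irr →₀ ℤ) : Φ (-g) = (Φ g)⁻¹ := by
  rw [eq_inv_iff_mul_eq_one, ← Φ_add, neg_add_cancel, Φ_zero]

theorem Φ_single (p : Irr) : Φ (Finsupp.single p 1) = u p := by
  unfold Φ
  rw [Finsupp.prod_single_index (zpow_zero _), zpow_one]

theorem exists_poly (a : (ZMod 2)[X]) (ha : a ≠ 0) :
    ∃ g, (Φ g : F) = algebraMap (ZMod 2)[X] F a := by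
  induction a using WfDvdMonoid.induction_on_irreducible with
  | zero => exact absurd rfl ha
  | unit v hv =>
    refine ⟨0, ?_⟩
    rw [Φ_zero, unit_eq_one hv, map_one, Units.val_one]
  | mul a i ha0 hi ih =>
    obtain ⟨g, hg⟩ := ih ha0
    refine ⟨Finsupp.single ⟨i, hi⟩ 1 + g, ?_⟩
    rw [Φ_add, Φ_single, Units.val_mul, hg, u_val, map_mul]

theorem Φ_surj : Function.Surjective Φ := by
  intro z
  obtain ⟨x, y, hy, h⟩ := IsFractionRing.div_surjective (ZMod 2)[X] (z : F)
  have hy0 : y ≠ 0 := nonZeroDivisors.ne_zero hy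
  have hx0 : x ≠ 0 := by
    rintro rfl
    rw [map_zero, zero_div] at h
    exact z.ne_zero h.symm
  obtain ⟨g, hg⟩ := exists_poly x hx0
  obtain ⟨g', hg'⟩ := exists_poly y hy0
  refine ⟨g + -g', ?_⟩
  ext
  rw [Φ_add, Φ_neg, Units.val_mul, Units.val_inv_eq_inv_val, hg, hg', ← h, div_eq_mul_inv]

open IsDedekindDomain in
/-- the prime ideal of an irreducible polynomial -/
noncomputable def pr (p : Irr) : HeightOneSpectrum (ZMod 2)[X] where
  asIdeal := Ideal.span {p.1}
  isPrime := (Ideal.span_singleton_prime p.2.ne_zero).2 p.2.prime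
  ne_bot := by
    rw [Ne, Ideal.span_singleton_eq_bot]
    exact p.2.ne_zero

theorem val_lt_one (p q : Irr) : (pr p).valuation F (u q : F) < 1 ↔ p = q := by
  rw [u_val]
  have h := (pr p).valuation_lt_one_iff_dvd (K := F) q.1
  refine h.trans ?_
  change Ideal.span {p.1} ∣ Ideal.span {q.1} ↔ p = q
  rw [Ideal.dvd_span_singleton, Ideal.mem_span_singleton]
  constructor
  · intro hd
    exact Subtype.ext (eq_of_associated ((p.2.dvd_irreducible_iff_associated q.2).1 hd))
  · rintro rfl
    exact dvd_rfl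

theorem val_eq_one {p q : Irr} (h : q ≠ p) : (pr p).valuation F (u q : F) = 1 := by
  have h1 : (pr p).valuation F (u q : F) ≤ 1 := (pr p).valuation_le_one q.1
  refine le_antisymm h1 (not_lt.1 fun h2 => h ?_)
  exact ((val_lt_one p q).1 h2).symm

theorem eq_zero_of_Φ {g : Irr →₀ ℤ} (hg : Φ g = 1) : g = 0 := by
  ext p
  have h1 : (pr p).valuation F ((Φ g : Fˣ) : F) = ((pr p).valuation F (u p : F)) ^ (g p) := by
    let W : Fˣ →* WithZero (Multiplicative ℤ) :=
      { toFun := fun x => (pr p).valuation F (x : F)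
        map_one' := by rw [Units.val_one, map_one]
        map_mul' := fun x y => by rw [Units.val_mul, map_mul] }
    have hW : ∀ x : Fˣ, W x = (pr p).valuation F (x : F) := fun _ => rfl
    have hWz : ∀ (x : Fˣ) (n : ℤ), W (x ^ n) = (W x) ^ n := by
      intro x n
      rw [hW, hW, Units.val_zpow_eq_zpow_val, map_zpow₀]
    rw [← hW, Φ, map_finsuppProd]
    rw [Finsupp.prod_eq_single p]
    · rw [hWz, hW]
    · intro q _ hq
      rw [hWz, hW, val_eq_one hq, one_zpow]
    · intro _
      rw [zpow_zero, map_one]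
  rw [hg, Units.val_one, map_one] at h1
  have h2 : (pr p).valuation F (u p : F) < 1 := (val_lt_one p p).2 rfl
  have h3 : 0 < (pr p).valuation F (u p : F) := by
    rw [Valuation.pos_iff]
    exact (u p).ne_zero
  have h4 := zpow_right_injective₀ h3 h2.ne
  exact h4 (by simpa using h1.symm)

theorem Φ_inj : Function.Injective Φ := by
  intro g h hgh
  have h1 : Φ (g + -h) = 1 := by rw [Φ_add, Φ_neg, hgh, mul_inv_cancel]
  have h2 := eq_zero_of_Φ h1
  rwa [← sub_eq_add_neg, sub_eq_zero] at h2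

/-- the free abelian group of countable rank is the multiplicative group -/
theorem exists_iso : ∃ Ψ : (ℕ →₀ ℤ) → Fˣ, Function.Bijective Ψ ∧ Ψ 0 = 1 ∧
    ∀ g h, Ψ (g + h) = Ψ g * Ψ h := by
  have : Countable Irr := inferInstance
  obtain ⟨e⟩ := nonempty_equiv_of_countable (α := ℕ) (β := Irr)
  refine ⟨fun g => Φ (Finsupp.domCongr e g), ?_, ?_, fun g h => ?_⟩
  · exact ⟨Φ_inj.comp (Finsupp.domCongr e).injective,
      Φ_surj.comp (Finsupp.domCongr e).surjective⟩
  · change Φ (Finsupp.domCongr e 0) = 1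
    rw [map_zero, Φ_zero]
  · change Φ (Finsupp.domCongr e (g + h)) = _
    rw [map_add, Φ_add]

end Units2

end Vale.Agent.P130
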