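import Vale.Agent.P130.Dual
import Vale.Agent.P130.Units

/-!
# P130: the action of the free abelian group of countable rank
-/

open MeasureTheory Set Polynomial

namespace Vale.Agent.P130

open Vale.Agent.P130.Dual Vale.Agent.P130.Units2

/-- the index set of a basis of `𝔽₂(t)` over `𝔽₂` -/
abbrev J : Type := Module.Basis.ofVectorSpaceIndex (ZMod 2) F

/-- a basis -/
noncomputable abbrev bb : Module.Basis J (ZMod 2) F := Module.Basis.ofVectorSpace (ZMod 2) F

instance infinite_F : Infinite F :=
  Infinite.of_injective _ (IsFractionRing.injective (ZMod 2)[X] F)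

instance infinite_J : Infinite J := by
  by_contra hfin
  rw [not_infinite_iff_finite] at hfin
  have h1 : Module.Finite (ZMod 2) F := Module.Finite.of_basis bb
  have h2 : Finite F := Module.finite_of_finite (ZMod 2)
  exact not_finite F

theorem add_self (a : F) : a + a = 0 := by
  have h : (1 : F) + 1 = 0 := by
    rw [← map_one (algebraMap (ZMod 2)[X] F), ← map_add, one_add_one, map_zero]
  have h2 : a + a = a * (1 + 1) := by ring
  rw [h2, h, mul_zero]

theorem main : ∃ (X : Type) (_ : MeasurableSpace X) (_ : StandardBorelSpace X) (μ : Measure X)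
    (_ : IsProbabilityMeasure μ) (T : (ℕ →₀ ℤ) → X → X),
    (∀ x, μ {x} = 0) ∧ IsAction μ T ∧ SimpleLebesgue μ T := by
  obtain ⟨Ψ, hΨ, h0, hadd⟩ := exists_iso
  have hne : (nhdsWithin (0 : J → ZMod 2) {0}ᶜ).NeBot := by
    by_contra h
    rw [Filter.not_neBot] at h
    have h1 : IsOpen {(0 : J → ZMod 2)} := by
      rw [isOpen_singleton_iff_punctured_nhds]
      exact h
    have h2 := discreteTopology_of_isOpen_singleton_zero h1
    have h3 : Finite (J → ZMod 2) := finite_of_compact_of_discrete
    exact not_finite (J → ZMod 2)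
  have key : ∀ g x, ch bb 1 (act bb (Ψ g : F) x) = ch bb (Ψ g : F) x := fun g x => by
    rw [ch_act, mul_one]
  refine ⟨J → ZMod 2, inferInstance, inferInstance, Dual.μ J, inferInstance,
    fun g => act bb (Ψ g : F), fun x => measure_singleton x, ⟨fun x => ?_, fun g h x => ?_,
    fun g => measurePreserving_act bb (Ψ g).ne_zero⟩, ch bb 1, ?_, integral_ch bb one_ne_zero,
    fun g => ?_, fun g h hgh => ?_, fun u hu hu0 hug => ?_⟩
  · rw [h0, Units.val_one]
    exact act_one bb x
  · rw [hadd, Units.val_mul]
    exact act_mul bb _ _ x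
  · refine MemLp.of_bound (ch bb 1).continuous.aestronglyMeasurable 1 ?_
    exact Filter.Eventually.of_forall fun x => (norm_sgn _).le
  · simp only [key]
    have h1 : ∀ x, ch bb (Ψ g : F) x * star (ch bb (Ψ g : F) x) = 1 := fun x => by
      rw [star_ch]
      have h2 := congrArg (fun f => f x) (ch_add bb (Ψ g : F) (Ψ g : F))
      simp only [add_self, ch_zero] at h2
      exact h2.symm
    simp only [h1]
    simp
  · simp only [key]
    have h1 : ∀ x, ch bb (Ψ g : F) x * star (ch bb (Ψ h : F) x) =
        ch bb ((Ψ g : F) + (Ψ h : F)) x := fun x => by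
      rw [star_ch, ch_add]
      rfl
    simp only [h1]
    refine integral_ch bb fun h2 => hgh (hΨ.1 (Units.ext ?_))
    have h3 := add_self (Ψ h : F)
    exact add_right_cancel (h2.trans h3.symm)
  · refine complete bb u hu fun v => ?_
    by_cases hv : v = 0
    · have h1 : ∀ x, u x * star (ch bb v x) = u x := fun x => by
        rw [hv, ch_zero]
        simp
      simp only [h1]
      exact hu0
    · obtain ⟨g, hg⟩ := hΨ.2 (Units.mk0 v hv)
      have h1 := hug g
      simp only [key] at h1
      simp only [hg, Units.val_mk0] at h1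
      exact h1

end Vale.Agent.P130
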